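import Vale.Agent.P063.Final

namespace Vale.Agent.Results.P063.ThresholdWidth

open Vale.Agent.P063

/-- The Friedgut-Kalai conjecture on the threshold width of graph properties (`r = 2`) and of
`r`-uniform hypergraph properties, and the lower bound of order `(log n)^(r/(r-1))` for the total
influence of a property (monotone or not), for every edge probability. -/
theorem result :
    (∀ r : ℕ, 2 ≤ r → ∃ C : ℝ, 0 < C ∧ ∀ n : ℕ, r ≤ n →
      ∀ P : Set (Hyp r n), IsProperty P → Increasing P → P.Nonempty → P ≠ Set.univ →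
        ∀ ε : ℝ, 0 < ε → ε < 1 / 2 →
          width ε P ≤ C * Real.log (1 / ε) / (Real.log n) ^ ((r : ℝ) / ((r : ℝ) - 1))) ∧
    (∀ r : ℕ, 2 ≤ r → ∃ c : ℝ, 0 < c ∧ ∀ n : ℕ, r ≤ n →
      ∀ P : Set (Hyp r n), IsProperty P → ∀ p : ℝ, 0 < p → p < 1 →
        c * (Real.log n) ^ ((r : ℝ) / ((r : ℝ) - 1)) * (mu p P * (1 - mu p P)) ≤ totInf p P) := by
  constructor
  · intro r hr
    obtain ⟨C, hC, h⟩ := width_upper r hr
    exact ⟨C, hC, fun n hn => h n (hr.trans hn)⟩
  · intro r hr
    obtain ⟨c, hc, h⟩ := influence_bound r hr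
    exact ⟨c, hc, fun n hn => h n (hr.trans hn)⟩

end Vale.Agent.Results.P063.ThresholdWidth
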