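import Vale.Agent.P063.Final

namespace Vale.Agent.Results.P063.WidthOrder

open Vale.Agent.P063

/-- The Friedgut-Kalai conjecture: for graph properties the threshold width is
`O_ε((log n)^(-2))`, and for `r`-uniform hypergraph properties it is
`O_{r, ε}((log n)^(-r/(r-1)))`. -/
theorem result :
    (∀ ε : ℝ, 0 < ε → ε < 1 / 2 → ∃ C : ℝ, ∀ n : ℕ, 2 ≤ n →
      ∀ P : Set (Hyp 2 n), IsProperty P → Increasing P → P.Nonempty → P ≠ Set.univ →
        width ε P ≤ C / (Real.log n) ^ 2) ∧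
    (∀ r : ℕ, 3 ≤ r → ∀ ε : ℝ, 0 < ε → ε < 1 / 2 → ∃ C : ℝ, ∀ n : ℕ, r ≤ n →
      ∀ P : Set (Hyp r n), IsProperty P → Increasing P → P.Nonempty → P ≠ Set.univ →
        width ε P ≤ C * (Real.log n) ^ (-((r : ℝ) / ((r : ℝ) - 1)))) := by
  constructor
  · intro ε hε hε2
    obtain ⟨C, hC, h⟩ := width_upper 2 le_rfl
    refine ⟨C * Real.log (1 / ε), fun n hn P h1 h2 h3 h4 => ?_⟩
    have h5 := h n hn P h1 h2 h3 h4 ε hε hε2
    have h6 : ((2 : ℕ) : ℝ) / (((2 : ℕ) : ℝ) - 1) = ((2 : ℕ) : ℝ) := by norm_num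
    rw [h6, Real.rpow_natCast] at h5
    exact h5
  · intro r hr ε hε hε2
    obtain ⟨C, hC, h⟩ := width_upper r (by omega)
    refine ⟨C * Real.log (1 / ε), fun n hn P h1 h2 h3 h4 => ?_⟩
    have h5 := h n (by omega) P h1 h2 h3 h4 ε hε hε2
    have h7 : (0 : ℝ) ≤ Real.log n := Real.log_natCast_nonneg n
    rw [Real.rpow_neg h7, ← div_eq_mul_inv]
    exact h5

end Vale.Agent.Results.P063.WidthOrder
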